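import Vale.Agent.P365.Fin2
import Vale.Agent.P365.Fin6
import Vale.Agent.P365.Defs7

open MeasureTheory Filter Topology

namespace Vale.Agent.Results.P365.Anomalous

open Vale.Agent.P365

theorem result (d : ℕ) (hd : 0 < d) (lam : ℝ) (hlam : 0 < lam) :
    (∀ ω : Site d → ℝ, (∀ x, ω x ∈ Set.Icc (-1 : ℝ) 1) →
      ∃ H : L2 d →L[ℂ] L2 d, IsAnderson lam ω H ∧ IsSelfAdjoint H ∧
        ∀ ψ : L2 d, ∃! μ : Measure ℝ, IsSpec H ψ μ) ∧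
    ∀ H : (Site d → ℝ) → L2 d →L[ℂ] L2 d,
      (∀ ω : Site d → ℝ, (∀ x, ω x ∈ Set.Icc (-1 : ℝ) 1) → IsAnderson lam ω (H ω)) →
      (∀ ψ : L2 d, mom ψ ≠ ⊤ →
        Tendsto (fun t : ℝ => (∫⁻ ω, mom (U (H ω) t ψ) ∂(PP d)) / ENNReal.ofReal (t ^ 2))
          atTop (𝓝 0)) ∧
      (∀ᵐ ω ∂(PP d), InfAC (H ω)) ∧
      ((∀ᵐ ω ∂(PP d), NoAC (H ω)) ∨
        ((∃ m : ENNReal, 0 < m ∧ ∀ K : ℝ, 0 < K → m ≤
          liminf (fun T : ℝ => tint H (esc (K * T ^ (1 / (d : ℝ)))) T / ENNReal.ofReal T) atTop) ∧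
        Tendsto (fun T : ℝ => tint H mom T / ENNReal.ofReal (T * T ^ (2 / (d : ℝ)))) atTop
          (𝓝 ⊤))) := by
  refine ⟨y_ex d lam, fun H hH => ⟨t_mainA d lam hlam H hH, ?_, ?_⟩⟩
  · filter_upwards [u_main d lam hd hlam H hH, (s_slice d).2.2] with ω h hω μ hμ
    exact u_op d (H ω) μ ((t_model d lam).2.1 ω (H ω) (fun x => abs_le.mpr (hω x)) (hH ω hω)).1
      hμ (h μ hμ)
  · rw [or_iff_not_imp_left]
    intro hn
    refine ⟨?_, ((x_mom d hd lam hlam H hH).imp_left (y_ae hH)).resolve_left hn⟩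
    obtain ⟨Hc, hF, hae⟩ := x_ae d lam H hH
    choose μ₀ h0 using fun ω => m_exspec (L2 d) (Hc ω) (dlt 0) (fam_sa hF ω)
    obtain ⟨h1, h2⟩ := x_esc d hd lam hlam H hH μ₀ (by
      filter_upwards [hae] with ω h
      rw [h]
      exact h0 ω)
    exact ⟨_, pos_iff_ne_zero.2 fun hz => hn (y_ae hH (h1 hz)), h2⟩

end Vale.Agent.Results.P365.Anomalous
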