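import Vale.Agent.P365.Fin6

open MeasureTheory Filter Topology

namespace Vale.Agent.Results.P365.Escape

open Vale.Agent.P365

theorem result (d : ℕ) (hd : 0 < d) (lam : ℝ) (hlam : 0 < lam) :
    (∀ ω : Site d → ℝ, (∀ x, ω x ∈ Set.Icc (-1 : ℝ) 1) →
      ∃ H : L2 d →L[ℂ] L2 d, IsAnderson lam ω H ∧ IsSelfAdjoint H ∧
        ∀ ψ : L2 d, ∃! μ : Measure ℝ, IsSpec H ψ μ) ∧
    ∀ H : (Site d → ℝ) → L2 d →L[ℂ] L2 d,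
      (∀ ω : Site d → ℝ, (∀ x, ω x ∈ Set.Icc (-1 : ℝ) 1) → IsAnderson lam ω (H ω)) →
      (∀ μ₀ : (Site d → ℝ) → Measure ℝ, (∀ᵐ ω ∂(PP d), IsSpec (H ω) (dlt 0) (μ₀ ω)) →
        (∫⁻ ω, acm (μ₀ ω) ∂(PP d) = 0 → ∀ᵐ ω ∂(PP d), NoAC (H ω)) ∧
        ∀ K : ℝ, 0 < K → ∫⁻ ω, acm (μ₀ ω) ∂(PP d) ≤
          liminf (fun T : ℝ => tint H (esc (K * T ^ (1 / (d : ℝ)))) T / ENNReal.ofReal T) atTop) ∧
      ((∀ᵐ ω ∂(PP d), NoAC (H ω)) ∨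
        Tendsto (fun T : ℝ => tint H mom T / ENNReal.ofReal (T * T ^ (2 / (d : ℝ)))) atTop
          (𝓝 ⊤)) :=
  ⟨y_ex d lam, fun H hH => ⟨fun μ₀ h0 => ⟨fun hz => y_ae hH ((x_esc d hd lam hlam H hH μ₀ h0).1 hz),
    (x_esc d hd lam hlam H hH μ₀ h0).2⟩, (x_mom d hd lam hlam H hH).imp_left (y_ae hH)⟩⟩

end Vale.Agent.Results.P365.Escape
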