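import Vale.Agent.P365.Fin3

open MeasureTheory Filter Topology

namespace Vale.Agent.Results.P365.InfMult

open Vale.Agent.P365

theorem result (d : ℕ) (hd : 0 < d) (lam : ℝ) (hlam : 0 < lam) :
    (∀ ω : Site d → ℝ, (∀ x, ω x ∈ Set.Icc (-1 : ℝ) 1) →
      ∃ H : L2 d →L[ℂ] L2 d, IsAnderson lam ω H ∧ IsSelfAdjoint H ∧
        ∀ ψ : L2 d, ∃! μ : Measure ℝ, IsSpec H ψ μ) ∧
    ∀ H : (Site d → ℝ) → L2 d →L[ℂ] L2 d,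
      (∀ ω : Site d → ℝ, (∀ x, ω x ∈ Set.Icc (-1 : ℝ) 1) → IsAnderson lam ω (H ω)) →
      ∀ᵐ ω ∂(PP d), ∀ μ : L2 d → Measure ℝ, (∀ ψ, IsSpec (H ω) ψ (μ ψ)) →
        (∀ φ : L2 d, φ ≠ 0 → (μ φ).AbsolutelyContinuous volume → ∀ (m : ℕ) (v : Fin m → L2 d),
          ∃ ψ : L2 d, (μ ψ).AbsolutelyContinuous (μ φ) ∧ ψ ∉ (gen (H ω) v).topologicalClosure) ∧
        (∀ᵐ e : ℝ, (∀ x, dens (μ (dlt x)) e = 0) ∨
          ∀ m : ℕ, ∃ z : Fin m → Site d, (Matrix.of fun i j => kern μ (z i) (z j) e).det ≠ 0) := by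
  obtain ⟨h1, h2, -⟩ := t_model d lam
  refine ⟨fun ω hω => ?_, fun H hH => ?_⟩
  · obtain ⟨H, hH⟩ := h1 ω (fun x => abs_le.mpr (hω x))
    have hsa := (h2 ω H (fun x => abs_le.mpr (hω x)) hH).1
    refine ⟨H, hH, hsa, fun ψ => ?_⟩
    obtain ⟨μ, hμ⟩ := m_exspec _ H ψ hsa
    exact ⟨μ, hμ, fun μ' h' => (o_uniq _ H ψ μ hsa hμ).2 μ' h'⟩
  · filter_upwards [u_main d lam hd hlam H hH, (s_slice d).2.2] with ω h hω μ hμ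
    have hsa := (h2 ω (H ω) (fun x => abs_le.mpr (hω x)) (hH ω hω)).1
    exact ⟨u_op d (H ω) μ hsa hμ (h μ hμ), h μ hμ⟩

end Vale.Agent.Results.P365.InfMult
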