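import Vale.Agent.P365.Fin2

open MeasureTheory Filter Topology

namespace Vale.Agent.Results.P365.NoBallistic

open Vale.Agent.P365

theorem result (d : ℕ) (lam : ℝ) (hlam : 0 < lam) :
    (∀ ω : Site d → ℝ, (∀ x, ω x ∈ Set.Icc (-1 : ℝ) 1) →
      ∃ H : L2 d →L[ℂ] L2 d, IsAnderson lam ω H ∧ IsSelfAdjoint H) ∧
    ∀ H : (Site d → ℝ) → L2 d →L[ℂ] L2 d,
      (∀ ω : Site d → ℝ, (∀ x, ω x ∈ Set.Icc (-1 : ℝ) 1) → IsAnderson lam ω (H ω)) →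
      (∀ ψ : L2 d, mom ψ ≠ ⊤ →
        Tendsto (fun t : ℝ => (∫⁻ ω, mom (U (H ω) t ψ) ∂(PP d)) / ENNReal.ofReal (t ^ 2))
          atTop (𝓝 0)) ∧
      (∀ t : ℕ → ℝ, Tendsto t atTop atTop → ∃ k : ℕ → ℕ, StrictMono k ∧
        ∀ᵐ ω ∂(PP d), ∀ ψ : L2 d, mom ψ ≠ ⊤ →
          Tendsto (fun n => mom (U (H ω) (t (k n)) ψ) / ENNReal.ofReal (t (k n) ^ 2))
            atTop (𝓝 0)) := by
  refine ⟨fun ω hω => ?_, fun H hH => ⟨t_mainA d lam hlam H hH, t_mainB d lam hlam H hH⟩⟩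
  obtain ⟨h1, h2, -⟩ := t_model d lam
  obtain ⟨H, hH⟩ := h1 ω (fun x => abs_le.mpr (hω x))
  exact ⟨H, hH, (h2 ω H (fun x => abs_le.mpr (hω x)) hH).1⟩

end Vale.Agent.Results.P365.NoBallistic
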